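/-
P235 AP, row AP5 (helper931): a law on finite families of height functions gives an embedding.
-/
import Vale.Agent.P235.Bdl.B1

namespace Vale.Agent.P235.AP

open Vale.Agent.P235

/-- the norm of a finite family of functions -/
theorem isL1_family {V : Type} [Finite V] {J : Type} [Fintype J] (W : J → V → ℝ) :
    IsL1 (fun x y => ∑ j, |W j x - W j y|) :=
  IsL1.sum Finset.univ (fun j x y => |W j x - W j y|) fun j _ => isL1_line (W j)

/-- the norm of a random finite family of functions -/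
theorem isL1_law {V : Type} [Finite V] {ι : Type} [Fintype ι] {J : ι → Type}
    [∀ i, Fintype (J i)] (p : ι → ℝ) (hp : ∀ i, 0 ≤ p i) (W : ∀ i, J i → V → ℝ) :
    IsL1 (fun x y => ∑ i, p i * ∑ j, |W i j x - W i j y|) :=
  IsL1.sum Finset.univ (fun i x y => p i * ∑ j, |W i j x - W i j y|) fun i _ =>
    (isL1_family (W i)).smul (hp i)

/-- **AP5.**  If every family of the law is at most `d` and the mean is at least `c d`, then `d`
embeds in `L₁` with distortion `1 / c`. -/
theorem law_embeds {V : Type} [Finite V] {d : V → V → ℝ} {c : ℝ} (hc : 0 < c) {ι : Type}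
    [Fintype ι] {J : ι → Type} [∀ i, Fintype (J i)] (p : ι → ℝ) (hp : ∀ i, 0 ≤ p i)
    (hs : ∑ i, p i = 1) (W : ∀ i, J i → V → ℝ)
    (hup : ∀ i x y, ∑ j, |W i j x - W i j y| ≤ d x y)
    (hlow : ∀ x y, c * d x y ≤ ∑ i, p i * ∑ j, |W i j x - W i j y|) :
    EmbedsL1 d (1 / c) := by
  refine ((isL1_law p hp W).smul (by positivity : (0 : ℝ) ≤ 1 / c)).embeds (fun x y => ?_)
    (fun x y => ?_)
  · have h1 := mul_le_mul_of_nonneg_left (hlow x y) (by positivity : (0 : ℝ) ≤ 1 / c)
    have h2 : 1 / c * (c * d x y) = d x y := by field_simp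
    rw [h2] at h1
    exact h1
  · refine mul_le_mul_of_nonneg_left ?_ (by positivity)
    calc ∑ i, p i * ∑ j, |W i j x - W i j y| ≤ ∑ i, p i * d x y :=
          Finset.sum_le_sum fun i _ => mul_le_mul_of_nonneg_left (hup i x y) (hp i)
      _ = d x y := by rw [← Finset.sum_mul, hs, one_mul]

/-- the same with functions with values in `ℤ` -/
theorem law_embeds_int {V : Type} [Finite V] {d : V → V → ℝ} {c : ℝ} (hc : 0 < c) {ι : Type}
    [Fintype ι] {J : ι → Type} [∀ i, Fintype (J i)] (p : ι → ℝ) (hp : ∀ i, 0 ≤ p i)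
    (hs : ∑ i, p i = 1) (W : ∀ i, J i → V → ℤ)
    (hup : ∀ i x y, ((∑ j, |W i j x - W i j y| : ℤ) : ℝ) ≤ d x y)
    (hlow : ∀ x y, c * d x y ≤ ∑ i, p i * ((∑ j, |W i j x - W i j y| : ℤ) : ℝ)) :
    EmbedsL1 d (1 / c) := by
  refine law_embeds hc p hp hs (fun i j x => (W i j x : ℝ)) (fun i x y => ?_) (fun x y => ?_)
  · refine le_trans (le_of_eq ?_) (hup i x y)
    push_cast
    rfl
  · refine (hlow x y).trans (le_of_eq ?_)
    refine Finset.sum_congr rfl fun i _ => ?_
    push_cast
    rfl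

end Vale.Agent.P235.AP
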